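import Vale.Agent.Lib.P072.Main

open Vale.Agent.Lib.P072 in
/-- Boundedness of all positive trajectories of weakly reversible mass-action systems whose
stoichiometric subspace has dimension at most two (any number of species and linkage classes),
with rates allowed to vary in time in `[ε, 1/ε]`; the bound depends only on the network,
`ε` and the initial state. -/
theorem Vale.Agent.Results.P072.BoundedDimTwo.result {d : ℕ} (R : Finset (Reaction d))
    (hWR : WeaklyReversible R)
    (hdim : Module.finrank ℝ (stoichiometricSubspace R) ≤ 2)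
    (ε : ℝ) (hε : 0 < ε) (x₀ : Fin d → ℝ) (hx₀ : ∀ i, 0 < x₀ i) :
    ∃ C : ℝ, ∀ (T : ℝ) (k : ℝ → Reaction d → ℝ) (x : ℝ → Fin d → ℝ),
      (∀ t, ∀ r ∈ R, ε ≤ k t r ∧ k t r ≤ ε⁻¹) →
      x 0 = x₀ →
      ContinuousOn x (Set.Ico 0 T) →
      (∀ t ∈ Set.Ico 0 T, ∀ i, 0 < x t i) →
      (∀ t ∈ Set.Ioo 0 T, HasDerivAt x (massAction R (k t) (x t)) t) →
      ∀ t ∈ Set.Ico 0 T, ∀ i, x t i ≤ C :=
  bounded_of_finrank_le_two hWR hdim hε hx₀
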