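import Vale.Agent.Lib.P072.Measured

open Vale.Agent.Lib.P072 in
/-- The stronger form of the permanence conjecture: measurable rates varying in time with values
in `[ε, 1/ε]`. Solutions are in the sense of Carathéodory, that is, continuous solutions of the
integrated equation `x t = x₀ + ∫ s in 0..t, f (s, x s)`.

First part: every positive initial state has a solution that is global and positive; it has the
prescribed derivative at almost every time, and every continuous solution of the integrated
equation on any `[0, T]` from the same state (positive or not) coincides with it.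

Second part: on every positive stoichiometric class `(c + S) ∩ ℝ₊^d` there is a compact subset `K`
of the class, depending only on the network, on the class and on `ε`, such that every global
positive solution in the class, for any measurable rates with values in `[ε, 1/ε]`, eventually
stays in `K`. -/
theorem Vale.Agent.Results.P072.PermanenceMeasurable.result {d : ℕ} (R : Finset (Reaction d))
    (hWR : WeaklyReversible R) {ε : ℝ} (hε : 0 < ε) :
    (∀ k : ℝ → Reaction d → ℝ, (∀ r ∈ R, Measurable fun t => k t r) →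
      (∀ t, ∀ r ∈ R, ε ≤ k t r ∧ k t r ≤ ε⁻¹) → ∀ x₀ : Fin d → ℝ, (∀ i, 0 < x₀ i) →
      ∃ x : ℝ → Fin d → ℝ, ContinuousOn x (Set.Ici 0) ∧ (∀ t, 0 ≤ t → ∀ i, 0 < x t i) ∧
        (∀ t, 0 ≤ t → x t = x₀ + ∫ s in (0 : ℝ)..t, massAction R (k s) (x s)) ∧
        (∀ᵐ t, 0 < t → HasDerivAt x (massAction R (k t) (x t)) t) ∧
        ∀ (T : ℝ) (z : ℝ → Fin d → ℝ), 0 ≤ T → ContinuousOn z (Set.Icc 0 T) →
          (∀ t ∈ Set.Icc 0 T, z t = x₀ + ∫ s in (0 : ℝ)..t, massAction R (k s) (z s)) →
          ∀ t ∈ Set.Icc 0 T, z t = x t) ∧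
    (∀ c : Fin d → ℝ, (∀ i, 0 < c i) →
      ∃ K : Set (Fin d → ℝ), IsCompact K ∧
        (∀ y ∈ K, (∀ i, 0 < y i) ∧ y - c ∈ stoichiometricSubspace R) ∧
        ∀ (k : ℝ → Reaction d → ℝ) (x : ℝ → Fin d → ℝ),
          (∀ r ∈ R, Measurable fun t => k t r) →
          (∀ t, ∀ r ∈ R, ε ≤ k t r ∧ k t r ≤ ε⁻¹) →
          x 0 - c ∈ stoichiometricSubspace R →
          ContinuousOn x (Set.Ici 0) →
          (∀ t, 0 ≤ t → ∀ i, 0 < x t i) →
          (∀ t, 0 ≤ t → x t = x 0 + ∫ s in (0 : ℝ)..t, massAction R (k s) (x s)) →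
          ∃ t₀, ∀ t, t₀ ≤ t → x t ∈ K) :=
  ⟨fun _ hkm hk _ hx₀ => exists_unique_meas hWR hε hkm hk hx₀,
    fun _ hc => attractor_meas hWR hε hc⟩
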