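import Vale.Agent.Lib.P072.Permanence

open Vale.Agent.Lib.P072 in
/-- Permanence of weakly reversible mass-action systems whose stoichiometric subspace has
dimension at most two (any number of species and of linkage classes).

First part: for constant positive rates, every positive initial state has a unique solution, and
this solution is global and positive; any solution on any `[0, T)` from the same state (positive
or not) coincides with it.

Second part: on every positive stoichiometric class `(c + S) ∩ ℝ₊^d` and for every `ε > 0` there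
is a compact subset `K` of the class such that every global positive solution in the class,
for rates with values in `[ε, 1/ε]` (constant or varying in time), eventually stays in `K`. -/
theorem Vale.Agent.Results.P072.PermanentDimTwo.result {d : ℕ} (R : Finset (Reaction d))
    (hWR : WeaklyReversible R)
    (hdim : Module.finrank ℝ (stoichiometricSubspace R) ≤ 2) :
    (∀ (k : Reaction d → ℝ), (∀ r ∈ R, 0 < k r) → ∀ x₀ : Fin d → ℝ, (∀ i, 0 < x₀ i) →
      ∃ x : ℝ → Fin d → ℝ, x 0 = x₀ ∧ ContinuousOn x (Set.Ici 0) ∧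
        (∀ t, 0 ≤ t → ∀ i, 0 < x t i) ∧
        (∀ t, 0 < t → HasDerivAt x (massAction R k (x t)) t) ∧
        ∀ (T : ℝ) (z : ℝ → Fin d → ℝ), z 0 = x₀ → ContinuousOn z (Set.Ico 0 T) →
          (∀ t ∈ Set.Ioo 0 T, HasDerivAt z (massAction R k (z t)) t) →
          ∀ t ∈ Set.Ico 0 T, z t = x t) ∧
    (∀ c : Fin d → ℝ, (∀ i, 0 < c i) → ∀ ε : ℝ, 0 < ε →
      ∃ K : Set (Fin d → ℝ), IsCompact K ∧
        (∀ y ∈ K, (∀ i, 0 < y i) ∧ y - c ∈ stoichiometricSubspace R) ∧
        ∀ (k : ℝ → Reaction d → ℝ) (x : ℝ → Fin d → ℝ),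
          (∀ t, ∀ r ∈ R, ε ≤ k t r ∧ k t r ≤ ε⁻¹) →
          x 0 - c ∈ stoichiometricSubspace R →
          ContinuousOn x (Set.Ici 0) →
          (∀ t, 0 ≤ t → ∀ i, 0 < x t i) →
          (∀ t, 0 < t → HasDerivAt x (massAction R (k t) (x t)) t) →
          ∃ t₀, ∀ t, t₀ ≤ t → x t ∈ K) :=
  ⟨fun _ hk _ hx₀ => global_of_finrank_le_two hWR hdim hk hx₀,
    fun _ hc _ hε => attractor_of_finrank_le_two hWR hdim hε hc⟩
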